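import Vale.Agent.P073.St

/-!
# P073: the image of Lebesgue measure under a diffeomorphism, locally
-/

namespace Vale.Agent.P073.R2.H669

open MeasureTheory Set Filter Topology Metric Vale.Agent.P073.St
open scoped ContDiff ENNReal

/-- the derivative of a diffeomorphism is invertible -/
theorem det_ne {Ω' Ω : Set V} {a h : V → V} (hΩ' : IsOpen Ω') (hΩ : IsOpen Ω)
    (ha : ContDiffOn ℝ ∞ a Ω') (hh : ContDiffOn ℝ ∞ h Ω)
    (h1 : ∀ x ∈ Ω', a x ∈ Ω ∧ h (a x) = x) {x : V} (hx : x ∈ Ω') : (fderiv ℝ a x).det ≠ 0 := by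
  have d1 : HasFDerivAt a (fderiv ℝ a x) x :=
    ((ha.contDiffAt (hΩ'.mem_nhds hx)).differentiableAt (by simp)).hasFDerivAt
  have d2 : HasFDerivAt h (fderiv ℝ h (a x)) (a x) :=
    ((hh.contDiffAt (hΩ.mem_nhds (h1 x hx).1)).differentiableAt (by simp)).hasFDerivAt
  have d3 := d2.comp x d1
  have d4 : HasFDerivAt (h ∘ a) (ContinuousLinearMap.id ℝ V) x := by
    refine (hasFDerivAt_id x).congr_of_eventuallyEq ?_
    filter_upwards [hΩ'.mem_nhds hx] with y hy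
    exact (h1 y hy).2
  have d5 : (fderiv ℝ h (a x)).comp (fderiv ℝ a x) = ContinuousLinearMap.id ℝ V := d3.unique d4
  intro h0
  have d6 : LinearMap.det (((fderiv ℝ h (a x)).comp (fderiv ℝ a x) : V →L[ℝ] V) : V →ₗ[ℝ] V) = 1 := by
    rw [d5]
    exact LinearMap.det_id
  have d7 : (((fderiv ℝ h (a x)).comp (fderiv ℝ a x) : V →L[ℝ] V) : V →ₗ[ℝ] V) =
      ((fderiv ℝ h (a x) : V →L[ℝ] V) : V →ₗ[ℝ] V) ∘ₗ ((fderiv ℝ a x : V →L[ℝ] V) : V →ₗ[ℝ] V) := rfl
  rw [d7, LinearMap.det_comp] at d6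
  have d8 : LinearMap.det ((fderiv ℝ a x : V →L[ℝ] V) : V →ₗ[ℝ] V) = 0 := h0
  rw [d8, mul_zero] at d6
  exact zero_ne_one d6

/-- the image of the measure -/
theorem map_le {Ω' Ω K : Set V} {a h : V → V} (hΩ' : IsOpen Ω') (hΩ : IsOpen Ω)
    (ha : ContDiffOn ℝ ∞ a Ω') (hh : ContDiffOn ℝ ∞ h Ω)
    (h1 : ∀ x ∈ Ω', a x ∈ Ω ∧ h (a x) = x)
    (hK : IsOpen K) (hKc : IsCompact (closure K)) (hKΩ : closure K ⊆ Ω') :
    AEMeasurable a (volume.restrict K) ∧ ∃ B : ℝ, 0 ≤ B ∧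
      Measure.map a (volume.restrict K) ≤ ENNReal.ofReal B • volume.restrict Ω := by
  have hKΩ' : K ⊆ Ω' := subset_closure.trans hKΩ
  have ham : AEMeasurable a (volume.restrict K) :=
    (ha.continuousOn.mono hKΩ').aemeasurable hK.measurableSet
  have hdc : ContinuousOn (fun x => |(fderiv ℝ a x).det|⁻¹) (closure K) := by
    have h2 : ContinuousOn (fun x => fderiv ℝ a x) Ω' :=
      ha.continuousOn_fderiv_of_isOpen hΩ' (by simp)
    have h3 : ContinuousOn (fun x => (fderiv ℝ a x).det) Ω' :=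
      ContinuousLinearMap.continuous_det.comp_continuousOn h2
    refine ContinuousOn.inv₀ ((h3.mono hKΩ).abs) ?_
    intro x hx
    exact abs_ne_zero.2 (det_ne hΩ' hΩ ha hh h1 (hKΩ hx))
  obtain ⟨B, hB⟩ := hKc.exists_bound_of_continuousOn hdc
  refine ⟨ham, max B 0, le_max_right _ _, Measure.le_iff.2 fun s hs => ?_⟩
  have hinj : InjOn a K := by
    intro x hx y hy hxy
    rw [← (h1 x (hKΩ' hx)).2, ← (h1 y (hKΩ' hy)).2, hxy]
  have hb1 : ∀ x ∈ K, (1 : ℝ≥0∞) ≤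
      ENNReal.ofReal (max B 0) * ENNReal.ofReal |(fderiv ℝ a x).det| := by
    intro x hx
    rw [← ENNReal.ofReal_mul (le_max_right _ _), ← ENNReal.ofReal_one]
    apply ENNReal.ofReal_le_ofReal
    have h4 := hB x (subset_closure hx)
    rw [Real.norm_eq_abs, abs_inv, abs_abs] at h4
    have h5 : 0 < |(fderiv ℝ a x).det| :=
      abs_pos.2 (det_ne hΩ' hΩ ha hh h1 (hKΩ' hx))
    have h6 : |(fderiv ℝ a x).det|⁻¹ ≤ max B 0 := h4.trans (le_max_left _ _)
    rwa [inv_le_iff_one_le_mul₀ h5] at h6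
  rw [Measure.map_apply_of_aemeasurable ham hs, Measure.smul_apply, smul_eq_mul]
  have hnull : NullMeasurableSet (a ⁻¹' s) (volume.restrict K) := ham.nullMeasurable hs
  have e1 : (volume.restrict K) (a ⁻¹' s) = ∫⁻ x in K, (s.indicator (1 : V → ℝ≥0∞)) (a x) := by
    rw [← lintegral_indicator_one₀ hnull]
    rfl
  have e2 : (volume.restrict Ω) s = ∫⁻ y in Ω, (s.indicator (1 : V → ℝ≥0∞)) y := by
    rw [lintegral_indicator_one hs]
  rw [e1, e2]
  have cv := lintegral_image_eq_lintegral_abs_det_fderiv_mul (volume : Measure V)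
    hK.measurableSet (f := a) (f' := fun x => fderiv ℝ a x)
    (fun x hx => (((ha.contDiffAt (hΩ'.mem_nhds (hKΩ' hx))).differentiableAt
      (by simp)).hasFDerivAt).hasFDerivWithinAt) hinj (s.indicator (1 : V → ℝ≥0∞))
  calc ∫⁻ x in K, (s.indicator (1 : V → ℝ≥0∞)) (a x)
      ≤ ∫⁻ x in K, ENNReal.ofReal (max B 0) *
          (ENNReal.ofReal |(fderiv ℝ a x).det| * (s.indicator (1 : V → ℝ≥0∞)) (a x)) := by
        refine setLIntegral_mono' hK.measurableSet fun x hx => ?_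
        rw [← mul_assoc]
        calc (s.indicator (1 : V → ℝ≥0∞)) (a x) = 1 * (s.indicator (1 : V → ℝ≥0∞)) (a x) :=
              (one_mul _).symm
          _ ≤ _ := mul_le_mul' (hb1 x hx) le_rfl
    _ = ENNReal.ofReal (max B 0) *
          ∫⁻ y in a '' K, (s.indicator (1 : V → ℝ≥0∞)) y := by
        rw [lintegral_const_mul' _ _ ENNReal.ofReal_ne_top, cv]
    _ ≤ ENNReal.ofReal (max B 0) * ∫⁻ y in Ω, (s.indicator (1 : V → ℝ≥0∞)) y := by
        refine mul_le_mul' le_rfl (lintegral_mono_set ?_)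
        rintro _ ⟨x, hx, rfl⟩
        exact (h1 x (hKΩ' hx)).1

end Vale.Agent.P073.R2.H669
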