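import Vale.Agent.P073.R2.H580.SpecC
import Vale.Agent.P073.R2.H580.Smooth
import Vale.Agent.P073.H655.Ibp
import Vale.Agent.P073.R2.H669.MapLe

/-!
# P073: the chain rule in smooth coordinates
-/

namespace Vale.Agent.P073.R2.H669

open MeasureTheory Set Filter Topology Metric Vale.Agent.P073.St Vale.Agent.P073.AB
open Vale.Agent.P073.SQ (ev)
open Vale.Agent.P073.R2.H580
open Vale.Agent.P073.H655 (Tst ibp)
open scoped ContDiff ENNReal

/-- a smaller exponent -/
theorem sob_one {p : ℝ} {Ω : Set V} {f : V → V} {F : V → Mat} (hp : 1 ≤ p)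
    (hv : volume Ω ≠ ⊤) (hF : St.IsSobolev p Ω f F) : St.IsSobolev 1 Ω f F := by
  have : IsFiniteMeasure (volume.restrict Ω) := ⟨by
    rw [Measure.restrict_apply_univ]; exact lt_top_iff_ne_top.2 hv⟩
  exact ⟨fun i => MemLp.mono_exponent (hF.1 i) (ENNReal.ofReal_le_ofReal hp),
    fun i j => MemLp.mono_exponent (hF.2.1 i j) (ENNReal.ofReal_le_ofReal hp), hF.2.2⟩

/-- smooth approximation with exponent one -/
theorem approx {p : ℝ} {Ω : Set V} {f : V → V} {F : V → Mat} (hp : 1 ≤ p)
    (hΩ : IsOpen Ω) (hb : Bornology.IsBounded Ω) (hfc : ContinuousOn f Ω)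
    (hF : St.IsSobolev p Ω f F) {δ : ℝ} (hδ : 0 < δ) :
    ∃ g : V → V, ContDiffOn ℝ ∞ g Ω ∧ (∀ x ∈ Ω, ‖g x - f x‖ ≤ δ) ∧
      ∫⁻ x in Ω, ‖fderiv ℝ g x - cl (F x)‖ₑ ≤ ENNReal.ofReal δ := by
  have hv : volume Ω ≠ ⊤ := hb.measure_lt_top.ne
  obtain ⟨g, g1, g2, g3, -⟩ := smooth (D := ⊥) MM.H307.mollLp (p := 1) (U := Ω) (f := f)
    (F := F) (e := fun _ => δ) (ε := δ) le_rfl hΩ hb hfc (sob_one hp hv hF)
    (Eventually.of_forall fun x _ h hh => by
      rw [Submodule.mem_bot] at hh
      subst hh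
      simp) continuousOn_const (fun _ _ => hδ) hδ
  refine ⟨g, g1, g2, ?_⟩
  refine le_trans (le_of_eq ?_) g3
  refine lintegral_congr fun x => ?_
  rw [Real.rpow_one, ofReal_norm]

theorem chain : SpecChain := by
  intro p Ω Λ Ω' Λ' f F a b hp hΩ hΛ hΩ' hΛ' hf hF ha hb K hK hKc hKΩ
  obtain ⟨ai, ⟨a1, a2⟩, a3, a4⟩ := ha
  obtain ⟨bi, ⟨b1, b2⟩, b3, b4⟩ := hb
  obtain ⟨fi, ⟨f1, f2⟩, f3, f4⟩ := hf
  have hac : ContDiffOn ℝ ∞ a Ω' := contDiffOn_pi.2 a3
  have haic : ContDiffOn ℝ ∞ ai Ω := contDiffOn_pi.2 a4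
  have hbc : ContDiffOn ℝ ∞ b Λ := contDiffOn_pi.2 b3
  have hΩo : IsOpen Ω := hΩ.1
  have hΩb : Bornology.IsBounded Ω := PK.isBounded_of_domain hΩ
  have hv : volume Ω ≠ ⊤ := hΩb.measure_lt_top.ne
  have hKΩ' : K ⊆ Ω' := subset_closure.trans hKΩ
  have hKv : volume K ≠ ⊤ := ((measure_mono subset_closure).trans_lt hKc.measure_lt_top).ne
  set μ : Measure V := volume.restrict K with hμ
  have : IsFiniteMeasure μ := ⟨by
    rw [hμ, Measure.restrict_apply_univ]; exact lt_top_iff_ne_top.2 hKv⟩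
  have hKm : MeasurableSet K := hK.measurableSet
  obtain ⟨ham, M, hM0, hM⟩ := map_le hΩ' hΩo hac haic a1 hK hKc hKΩ
  -- the compact sets
  have hCc : IsCompact (a '' closure K) := hKc.image_of_continuousOn (hac.continuousOn.mono hKΩ)
  have hCΩ : a '' closure K ⊆ Ω := by
    rintro _ ⟨x, hx, rfl⟩
    exact (a1 x (hKΩ hx)).1
  have hDc : IsCompact (f '' (a '' closure K)) := hCc.image_of_continuousOn (f3.mono hCΩ)
  have hDΛ : f '' (a '' closure K) ⊆ Λ := by
    rintro _ ⟨y, hy, rfl⟩
    exact (f1 y (hCΩ hy)).1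
  obtain ⟨r, hr, hrΛ⟩ := hDc.exists_cthickening_subset_open hΛ hDΛ
  set T : Set V := cthickening r (f '' (a '' closure K)) with hT
  have hTc : IsCompact T := hDc.cthickening
  have hTmem : ∀ x ∈ closure K, ∀ y : V, ‖y - f (a x)‖ ≤ r → y ∈ T := by
    intro x hx y hy
    refine mem_cthickening_of_dist_le y (f (a x)) r _ ⟨a x, ⟨x, hx, rfl⟩, rfl⟩ ?_
    rwa [dist_eq_norm]
  -- bounds
  have hfdb : ContinuousOn (fun y => fderiv ℝ b y) Λ := hbc.continuousOn_fderiv_of_isOpen hΛ (by simp)
  have hfda : ContinuousOn (fun x => fderiv ℝ a x) Ω' :=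
    hac.continuousOn_fderiv_of_isOpen hΩ' (by simp)
  obtain ⟨B1, hB10, hB1⟩ : ∃ B1 : ℝ, 0 ≤ B1 ∧ ∀ y ∈ T, ‖fderiv ℝ b y‖ ≤ B1 := by
    obtain ⟨B, hB⟩ := hTc.exists_bound_of_continuousOn (hfdb.mono hrΛ)
    exact ⟨max B 0, le_max_right _ _, fun y hy => (hB y hy).trans (le_max_left _ _)⟩
  obtain ⟨B0, hB0⟩ := hTc.exists_bound_of_continuousOn (hbc.continuousOn.mono hrΛ)
  obtain ⟨A1, hA10, hA1⟩ : ∃ A1 : ℝ, 0 ≤ A1 ∧ ∀ x ∈ closure K, ‖fderiv ℝ a x‖ ≤ A1 := by
    obtain ⟨B, hB⟩ := hKc.exists_bound_of_continuousOn (hfda.mono hKΩ)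
    exact ⟨max B 0, le_max_right _ _, fun y hy => (hB y hy).trans (le_max_left _ _)⟩
  have hfT : ∀ x ∈ closure K, f (a x) ∈ T := fun x hx => hTmem x hx _ (by simp [hr.le])
  -- the derivative of f at a x
  set W : V → V →L[ℝ] V := fun x => cl (F (a x)) with hW
  have hWp : MemLp W (ENNReal.ofReal p) μ := by
    have h1 : MemLp (fun x => cl (F x)) (ENNReal.ofReal p) (volume.restrict Ω) :=
      PK.IsSob.memLp_cl hF
    have h2 : MemLp (fun x => cl (F x)) (ENNReal.ofReal p) (Measure.map a μ) :=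
      h1.of_measure_le_smul ENNReal.ofReal_ne_top hM
    exact (memLp_map_measure_iff h2.aestronglyMeasurable ham).1 h2
  have hWi : Integrable W μ := MemLp.integrable (by
    rw [← ENNReal.ofReal_one]; exact ENNReal.ofReal_le_ofReal hp) hWp
  have hev : ∀ j, ‖ev j‖ = 1 := fun j => by unfold ev; rw [Pi.norm_single]; simp
  -- measurability and bound of the products
  have hfa : ContinuousOn (fun x => f (a x)) K :=
    (f3.comp hac.continuousOn fun x hx => (a1 x hx).1).mono hKΩ'
  have hprod : ∀ (L : V → V →L[ℝ] V) (N : V → V →L[ℝ] V) (i j : Fin 3),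
      AEStronglyMeasurable L μ → AEStronglyMeasurable N μ →
      AEStronglyMeasurable (fun x => (L x (N x (fderiv ℝ a x (ev j)))) i) μ := by
    intro L N i j hL hN
    have h1 : AEStronglyMeasurable (fun x => fderiv ℝ a x (ev j)) μ :=
      ((hfda.mono hKΩ').clm_apply continuousOn_const).aestronglyMeasurable hKm
    have h2 : AEStronglyMeasurable (fun x => N x (fderiv ℝ a x (ev j))) μ :=
      isBoundedBilinearMap_apply.continuous.comp_aestronglyMeasurable (hN.prodMk h1)
    have h3 : AEStronglyMeasurable (fun x => L x (N x (fderiv ℝ a x (ev j)))) μ :=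
      isBoundedBilinearMap_apply.continuous.comp_aestronglyMeasurable (hL.prodMk h2)
    exact (continuous_apply i).comp_aestronglyMeasurable h3
  have hbound : ∀ (y : V) (N : V →L[ℝ] V) (x : V) (i j : Fin 3), y ∈ T → x ∈ K →
      ‖(fderiv ℝ b y (N (fderiv ℝ a x (ev j)))) i‖ ≤ B1 * A1 * ‖N‖ := by
    intro y N x i j hy hx
    calc ‖(fderiv ℝ b y (N (fderiv ℝ a x (ev j)))) i‖
        ≤ ‖fderiv ℝ b y (N (fderiv ℝ a x (ev j)))‖ := norm_le_pi_norm _ i
      _ ≤ ‖fderiv ℝ b y‖ * ‖N (fderiv ℝ a x (ev j))‖ := (fderiv ℝ b y).le_opNorm _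
      _ ≤ ‖fderiv ℝ b y‖ * (‖N‖ * ‖fderiv ℝ a x (ev j)‖) :=
          mul_le_mul_of_nonneg_left (N.le_opNorm _) (norm_nonneg _)
      _ ≤ ‖fderiv ℝ b y‖ * (‖N‖ * (‖fderiv ℝ a x‖ * ‖ev j‖)) := by
          gcongr
          exact (fderiv ℝ a x).le_opNorm _
      _ ≤ B1 * (‖N‖ * (A1 * 1)) := by
          rw [hev]
          have := hB1 y hy
          have := hA1 x (subset_closure hx)
          gcongr
      _ = B1 * A1 * ‖N‖ := by ring
  refine ⟨fun i => ?_, fun i j => ?_, fun φ hφ i j => ?_⟩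
  · -- the map is in L^p
    have hc : ContinuousOn (fun x => b (f (a x)) i) K :=
      (continuous_apply i).comp_continuousOn (hbc.continuousOn.comp hfa fun x hx =>
        (f1 _ (a1 x (hKΩ' hx)).1).1)
    refine MemLp.of_bound (hc.aestronglyMeasurable hKm) B0 ?_
    filter_upwards [ae_restrict_mem hKm] with x hx
    exact (norm_le_pi_norm _ i).trans (hB0 _ (hfT x (subset_closure hx)))
  · -- the derivative is in L^p
    have hL : AEStronglyMeasurable (fun x => fderiv ℝ b (f (a x))) μ :=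
      (hfdb.comp hfa fun x hx => (f1 _ (a1 x (hKΩ' hx)).1).1).aestronglyMeasurable hKm
    refine MemLp.of_le_mul (c := B1 * A1) hWp
      (hprod _ _ i j hL hWp.aestronglyMeasurable) ?_
    filter_upwards [ae_restrict_mem hKm] with x hx
    exact hbound _ _ x i j (hfT x (subset_closure hx)) hx
  · -- the weak derivative
    have hφT : Tst K φ := Tst.of_isTest hφ
    obtain ⟨C0, hC0⟩ := hφT.comp.exists_bound_of_continuous hφT.smooth.continuous
    have hC00 : 0 ≤ C0 := (norm_nonneg _).trans (hC0 0)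
    obtain ⟨C1, hC1⟩ := (hφT.dcomp j).exists_bound_of_continuous (hφT.dcont j)
    have hC10 : 0 ≤ C1 := (norm_nonneg _).trans (hC1 0)
    have hδ : ∀ k : ℕ, 0 < min r (1 / ((k : ℝ) + 1)) := fun k => lt_min hr (by positivity)
    choose g g1 g2 g3 using fun k : ℕ => approx hp hΩo hΩb f3 hF (hδ k)
    have hgT : ∀ k, ∀ x ∈ closure K, g k (a x) ∈ T := fun k x hx =>
      hTmem x hx _ ((g2 k _ (hCΩ ⟨x, hx, rfl⟩)).trans (min_le_left _ _))
    have hδt : Tendsto (fun k : ℕ => 1 / ((k : ℝ) + 1)) atTop (𝓝 0) :=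
      tendsto_one_div_add_atTop_nhds_zero_nat
    have hgt : ∀ x ∈ closure K, Tendsto (fun k => g k (a x)) atTop (𝓝 (f (a x))) := by
      intro x hx
      rw [tendsto_iff_norm_sub_tendsto_zero]
      exact squeeze_zero (fun _ => norm_nonneg _)
        (fun k => (g2 k _ (hCΩ ⟨x, hx, rfl⟩)).trans (min_le_right _ _)) hδt
    have hga : ∀ k, ContDiffOn ℝ ∞ (fun x => g k (a x)) K := fun k =>
      (g1 k).comp (hac.mono hKΩ') fun x hx => (a1 x (hKΩ' hx)).1
    have hG : ∀ k, ContDiffOn ℝ ∞ (fun x => b (g k (a x))) K := fun k =>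
      hbc.comp (hga k) fun x hx => hrΛ (hgT k x (subset_closure hx))
    have hder : ∀ k, ∀ x ∈ K, fderiv ℝ (fun x => b (g k (a x))) x (ev j) =
        fderiv ℝ b (g k (a x)) (fderiv ℝ (g k) (a x) (fderiv ℝ a x (ev j))) := by
      intro k x hx
      have d1 : HasFDerivAt a (fderiv ℝ a x) x :=
        ((hac.contDiffAt (hΩ'.mem_nhds (hKΩ' hx))).differentiableAt (by simp)).hasFDerivAt
      have d2 : HasFDerivAt (g k) (fderiv ℝ (g k) (a x)) (a x) :=
        (((g1 k).contDiffAt (hΩo.mem_nhds (a1 x (hKΩ' hx)).1)).differentiableAt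
          (by simp)).hasFDerivAt
      have d3 : HasFDerivAt b (fderiv ℝ b (g k (a x))) (g k (a x)) :=
        ((hbc.contDiffAt (hΛ.mem_nhds (hrΛ (hgT k x (subset_closure hx))))).differentiableAt
          (by simp)).hasFDerivAt
      have d4 := (d3.comp x (d2.comp x d1)).fderiv
      have d5 : fderiv ℝ (fun x => b (g k (a x))) x =
          (fderiv ℝ b (g k (a x))).comp ((fderiv ℝ (g k) (a x)).comp (fderiv ℝ a x)) := d4
      rw [d5]
      rfl
    -- integration by parts for the approximations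
    have hibp := fun k => ibp hK ((hG k).of_le (by simp)) hφT i j
    have hset : ∀ u : V → ℝ, ∫ x in K, φ x * u x = ∫ x, φ x * u x := by
      intro u
      rw [setIntegral_eq_integral_of_forall_compl_eq_zero]
      intro x hx
      rw [hφT.zero hx, zero_mul]
    have hset' : ∀ u : V → ℝ, ∫ x in K, fderiv ℝ φ x (ev j) * u x =
        ∫ x, fderiv ℝ φ x (ev j) * u x := by
      intro u
      rw [setIntegral_eq_integral_of_forall_compl_eq_zero]
      intro x hx
      rw [hφT.dzero j hx, zero_mul]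
    -- the right hand side
    have hR : Tendsto (fun k => ∫ x in K, fderiv ℝ φ x (ev j) * b (g k (a x)) i) atTop
        (𝓝 (∫ x in K, fderiv ℝ φ x (ev j) * b (f (a x)) i)) := by
      refine tendsto_integral_of_dominated_convergence (fun _ => C1 * B0) ?_
        (integrable_const _) ?_ ?_
      · intro k
        exact ((hφT.dcont j).continuousOn.mul
          ((continuous_apply i).comp_continuousOn (hG k).continuousOn)).aestronglyMeasurable hKm
      · intro k
        filter_upwards [ae_restrict_mem hKm] with x hx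
        rw [norm_mul]
        exact mul_le_mul (hC1 x) ((norm_le_pi_norm _ i).trans (hB0 _ (hgT k x (subset_closure hx))))
          (norm_nonneg _) hC10
      · filter_upwards [ae_restrict_mem hKm] with x hx
        refine Tendsto.const_mul _ ?_
        have h1 : Tendsto b (𝓝 (f (a x))) (𝓝 (b (f (a x)))) :=
          (hbc.continuousOn.continuousAt (hΛ.mem_nhds (hrΛ (hfT x (subset_closure hx))))).tendsto
        exact ((continuous_apply i).tendsto _).comp (h1.comp (hgt x (subset_closure hx)))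
    -- the left hand side, main part
    set Q : ℕ → V → ℝ := fun k x =>
      φ x * (fderiv ℝ b (g k (a x)) (W x (fderiv ℝ a x (ev j)))) i with hQ
    have hQm : ∀ k, AEStronglyMeasurable (Q k) μ := by
      intro k
      refine hφT.smooth.continuous.aestronglyMeasurable.mul ?_
      refine hprod _ _ i j ?_ hWp.aestronglyMeasurable
      exact (hfdb.comp (hga k).continuousOn fun x hx =>
        hrΛ (hgT k x (subset_closure hx))).aestronglyMeasurable hKm
    have hQb : ∀ k, ∀ᵐ x ∂μ, ‖Q k x‖ ≤ C0 * (B1 * A1 * ‖W x‖) := by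
      intro k
      filter_upwards [ae_restrict_mem hKm] with x hx
      rw [hQ, norm_mul]
      exact mul_le_mul (hC0 x) (hbound _ _ x i j (hgT k x (subset_closure hx)) hx)
        (norm_nonneg _) hC00
    have hQi : ∀ k, Integrable (Q k) μ := fun k =>
      Integrable.mono' ((hWi.norm.const_mul (B1 * A1)).const_mul C0) (hQm k) (hQb k)
    have hL : Tendsto (fun k => ∫ x, Q k x ∂μ) atTop
        (𝓝 (∫ x, φ x * (fderiv ℝ b (f (a x)) (W x (fderiv ℝ a x (ev j)))) i ∂μ)) := by
      refine tendsto_integral_of_dominated_convergence (fun x => C0 * (B1 * A1 * ‖W x‖)) hQm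
        ((hWi.norm.const_mul (B1 * A1)).const_mul C0) hQb ?_
      filter_upwards [ae_restrict_mem hKm] with x hx
      refine Tendsto.const_mul _ ?_
      have h1 : Tendsto (fun y => fderiv ℝ b y) (𝓝 (f (a x))) (𝓝 (fderiv ℝ b (f (a x)))) :=
        (hfdb.continuousAt (hΛ.mem_nhds (hrΛ (hfT x (subset_closure hx))))).tendsto
      have h2 : Tendsto (fun k => fderiv ℝ b (g k (a x)) (W x (fderiv ℝ a x (ev j)))) atTop
          (𝓝 (fderiv ℝ b (f (a x)) (W x (fderiv ℝ a x (ev j))))) :=
        ((ContinuousLinearMap.apply ℝ V (W x (fderiv ℝ a x (ev j)))).continuous.tendsto _).comp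
          (h1.comp (hgt x (subset_closure hx)))
      exact ((continuous_apply i).tendsto _).comp h2
    -- the left hand side, error
    set P : ℕ → V → ℝ := fun k x =>
      φ x * fderiv ℝ (fun x => b (g k (a x))) x (ev j) i - Q k x with hP
    have hPt : Tendsto (fun k => ∫ x, P k x ∂μ) atTop (𝓝 0) := by
      have hPb : ∀ k, ‖∫ x, P k x ∂μ‖ ≤ C0 * (B1 * A1) * M * (1 / ((k : ℝ) + 1)) := by
        intro k
        have hk : (0 : ℝ) ≤ 1 / ((k : ℝ) + 1) := by positivity
        have hu : AEMeasurable (fun y => ‖fderiv ℝ (g k) y - cl (F y)‖ₑ) (Measure.map a μ) := by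
          have h1 : AEStronglyMeasurable (fun y => fderiv ℝ (g k) y) (volume.restrict Ω) :=
            ((g1 k).continuousOn_fderiv_of_isOpen hΩo (by simp)).aestronglyMeasurable
              hΩo.measurableSet
          have h2 : AEStronglyMeasurable (fun y => fderiv ℝ (g k) y - cl (F y))
              (volume.restrict Ω) := h1.sub (PK.IsSob.aesm hF)
          exact (h2.mono_ac (Measure.absolutelyContinuous_of_le_smul hM)).enorm
        have e1 : ‖∫ x, P k x ∂μ‖ₑ ≤
            ENNReal.ofReal (C0 * (B1 * A1) * M * (1 / ((k : ℝ) + 1))) := by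
          calc ‖∫ x, P k x ∂μ‖ₑ ≤ ∫⁻ x, ‖P k x‖ₑ ∂μ := enorm_integral_le_lintegral_enorm _
            _ ≤ ∫⁻ x, ENNReal.ofReal (C0 * (B1 * A1)) *
                  ‖fderiv ℝ (g k) (a x) - cl (F (a x))‖ₑ ∂μ := by
                refine lintegral_mono_ae ?_
                filter_upwards [ae_restrict_mem hKm] with x hx
                have e2 : P k x = φ x * (fderiv ℝ b (g k (a x))
                    ((fderiv ℝ (g k) (a x) - W x) (fderiv ℝ a x (ev j)))) i := by
                  simp only [hP, hQ]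
                  rw [hder k x hx, sub_apply, map_sub, Pi.sub_apply]
                  ring
                rw [e2, ← ofReal_norm, ← ofReal_norm,
                  ← ENNReal.ofReal_mul (by positivity)]
                apply ENNReal.ofReal_le_ofReal
                rw [norm_mul]
                calc ‖φ x‖ * ‖(fderiv ℝ b (g k (a x))
                      ((fderiv ℝ (g k) (a x) - W x) (fderiv ℝ a x (ev j)))) i‖
                    ≤ C0 * (B1 * A1 * ‖fderiv ℝ (g k) (a x) - W x‖) :=
                      mul_le_mul (hC0 x)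
                        (hbound _ _ x i j (hgT k x (subset_closure hx)) hx)
                        (norm_nonneg _) hC00
                  _ = C0 * (B1 * A1) * ‖fderiv ℝ (g k) (a x) - cl (F (a x))‖ := by
                      rw [hW]; ring
            _ = ENNReal.ofReal (C0 * (B1 * A1)) *
                  ∫⁻ x, ‖fderiv ℝ (g k) (a x) - cl (F (a x))‖ₑ ∂μ :=
                lintegral_const_mul' _ _ ENNReal.ofReal_ne_top
            _ = ENNReal.ofReal (C0 * (B1 * A1)) *
                  ∫⁻ y, ‖fderiv ℝ (g k) y - cl (F y)‖ₑ ∂(Measure.map a μ) := by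
                rw [lintegral_map' hu ham]
            _ ≤ ENNReal.ofReal (C0 * (B1 * A1)) *
                  ∫⁻ y, ‖fderiv ℝ (g k) y - cl (F y)‖ₑ ∂(ENNReal.ofReal M • volume.restrict Ω) :=
                mul_le_mul' le_rfl (lintegral_mono' hM le_rfl)
            _ = ENNReal.ofReal (C0 * (B1 * A1)) * (ENNReal.ofReal M *
                  ∫⁻ y in Ω, ‖fderiv ℝ (g k) y - cl (F y)‖ₑ) := by
                rw [lintegral_smul_measure, smul_eq_mul]
            _ ≤ ENNReal.ofReal (C0 * (B1 * A1)) * (ENNReal.ofReal M *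
                  ENNReal.ofReal (1 / ((k : ℝ) + 1))) := by
                refine mul_le_mul' le_rfl (mul_le_mul' le_rfl ((g3 k).trans ?_))
                exact ENNReal.ofReal_le_ofReal (min_le_right _ _)
            _ = ENNReal.ofReal (C0 * (B1 * A1) * M * (1 / ((k : ℝ) + 1))) := by
                rw [← ENNReal.ofReal_mul hM0, ← ENNReal.ofReal_mul (by positivity)]
                congr 1
                ring
        rw [← ofReal_norm] at e1
        exact (ENNReal.ofReal_le_ofReal_iff (by positivity)).1 e1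
      refine squeeze_zero_norm hPb ?_
      simpa using hδt.const_mul (C0 * (B1 * A1) * M)
    have hDi : ∀ k, Integrable (fun x => φ x * fderiv ℝ (fun x => b (g k (a x))) x (ev j) i) μ :=
      fun k => (hibp k).1.integrableOn
    have hsum : ∀ k, ∫ x, φ x * fderiv ℝ (fun x => b (g k (a x))) x (ev j) i ∂μ =
        (∫ x, P k x ∂μ) + ∫ x, Q k x ∂μ := by
      intro k
      have hPi : Integrable (P k) μ := (hDi k).sub (hQi k)
      rw [← integral_add hPi (hQi k)]
      refine integral_congr_ae (Eventually.of_forall fun x => ?_)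
      simp [hP]
    have hlim1 : Tendsto (fun k => ∫ x, φ x * fderiv ℝ (fun x => b (g k (a x))) x (ev j) i ∂μ)
        atTop (𝓝 (0 + ∫ x, φ x * (fderiv ℝ b (f (a x)) (W x (fderiv ℝ a x (ev j)))) i ∂μ)) := by
      simp only [hsum]
      exact hPt.add hL
    have hlim2 : Tendsto (fun k => ∫ x, φ x * fderiv ℝ (fun x => b (g k (a x))) x (ev j) i ∂μ)
        atTop (𝓝 (-∫ x in K, fderiv ℝ φ x (ev j) * b (f (a x)) i)) := by
      have h1 : ∀ k, ∫ x, φ x * fderiv ℝ (fun x => b (g k (a x))) x (ev j) i ∂μ =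
          -∫ x in K, fderiv ℝ φ x (ev j) * b (g k (a x)) i := by
        intro k
        rw [hμ, hset, hset']
        exact (hibp k).2
      simp only [h1]
      exact hR.neg
    have hfin := tendsto_nhds_unique hlim1 hlim2
    rw [zero_add] at hfin
    unfold St.int
    have hpd : ∀ x, pd φ x j = fderiv ℝ φ x (ev j) := fun x => PK.pd_eq_fderiv hφT.smooth x j
    simp only [hpd]
    exact hfin

end Vale.Agent.P073.R2.H669
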