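import Vale.Agent.P073.St
import Mathlib.Topology.ShrinkingLemma
import Mathlib.Topology.Compactness.Paracompact
import Mathlib.Analysis.Calculus.BumpFunction.FiniteDimension

/-!
# P073: a locally finite smooth partition of unity of an open set
-/

namespace Vale.Agent.P073.R2.H669

open Set Filter Topology Metric Vale.Agent.P073.St
open scoped ContDiff

/-- a smooth partition of unity of the open set `Λ`, subordinate to an open cover -/
theorem exists_tpart {ι : Type*} {Λ : Set V} (hΛ : IsOpen Λ) (W : ι → Set V)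
    (hW : ∀ a, IsOpen (W a)) (hsub : ∀ a, W a ⊆ Λ) (hcov : Λ ⊆ ⋃ a, W a) :
    ∃ (J : Type) (idx : J → ι) (χ : J → V → ℝ) (O : J → Set V),
      (∀ j, ContDiff ℝ ∞ (χ j)) ∧ (∀ j x, 0 ≤ χ j x) ∧ (∀ j, IsOpen (O j)) ∧
      (∀ j, tsupport (χ j) ⊆ O j) ∧ (∀ j, IsCompact (closure (O j))) ∧
      (∀ j, closure (O j) ⊆ W (idx j)) ∧
      (∀ x ∈ Λ, ∃ t ∈ 𝓝 x, {j | (O j ∩ t).Nonempty}.Finite) ∧
      ∀ x ∈ Λ, ∑ᶠ j, χ j x = 1 := by
  have hch : ∀ x : Λ, ∃ a, (x : V) ∈ W a := fun x => mem_iUnion.1 (hcov x.2)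
  choose a ha using hch
  have : LocallyCompactSpace Λ := hΛ.locallyCompactSpace
  have hB : ∀ x : Λ, (𝓝 x).HasBasis (fun ρ : ℝ => 0 < ρ ∧ closedBall (x : V) ρ ⊆ W (a x))
      (fun ρ => (Subtype.val ⁻¹' ball (x : V) ρ : Set Λ)) := by
    intro x
    refine ⟨fun t => ⟨fun ht => ?_, fun ⟨ρ, hρ, h⟩ => ?_⟩⟩
    · rw [nhds_subtype_eq_comap, mem_comap] at ht
      obtain ⟨s, hs, hst⟩ := ht
      obtain ⟨ρ₁, h1, h1'⟩ := Metric.mem_nhds_iff.1 hs
      obtain ⟨ρ₂, h2, h2'⟩ :=
        Metric.nhds_basis_closedBall.mem_iff.1 ((hW (a x)).mem_nhds (ha x))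
      refine ⟨min ρ₁ ρ₂, ⟨lt_min h1 h2,
        (closedBall_subset_closedBall (min_le_right _ _)).trans h2'⟩, ?_⟩
      exact fun y hy => hst (h1' (ball_subset_ball (min_le_left _ _) hy))
    · refine mem_of_superset ?_ h
      exact (isOpen_ball.preimage continuous_subtype_val).mem_nhds (mem_ball_self hρ.1)
  obtain ⟨J, c, r, hp, hU, hfin⟩ := refinement_of_locallyCompact_sigmaCompact_of_nhds_basis hB
  obtain ⟨v, vU, vo, vc⟩ := exists_iUnion_eq_closure_subset
    (fun j => isOpen_ball.preimage continuous_subtype_val) hfin.point_finite hU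
  let O : J → Set V := fun j => ball (c j : V) (r j)
  let P : J → Set V := fun j => Subtype.val '' v j
  have hPo : ∀ j, IsOpen (P j) := fun j => hΛ.isOpenMap_subtype_val _ (vo j)
  have hOW : ∀ j, closure (O j) ⊆ W (a (c j)) := fun j =>
    closure_ball_subset_closedBall.trans (hp j).2
  have hPc : ∀ j, closure (P j) ⊆ O j := by
    intro j x hx
    have h1 : x ∈ closure (O j) :=
      closure_mono (image_subset_iff.2 fun y hy => vc j (subset_closure hy)) hx
    have h2 : x ∈ Λ := hsub _ (hOW j h1)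
    have h3 : (⟨x, h2⟩ : Λ) ∈ closure (v j) := by
      rw [closure_subtype]; exact hx
    exact vc j h3
  have hex : ∀ j, ∃ f : V → ℝ, Function.support f = P j ∧ ContDiff ℝ ∞ f ∧
      range f ⊆ Icc 0 1 := fun j => (hPo j).exists_contDiff_support_eq (n := ⊤)
  choose g gs gc gr using hex
  have g0 : ∀ j x, 0 ≤ g j x := fun j x => (gr j (mem_range_self x)).1
  have gts : ∀ j, tsupport (g j) ⊆ O j := fun j => by
    unfold tsupport
    rw [gs j]
    exact hPc j
  have hloc : ∀ x ∈ Λ, ∃ t ∈ 𝓝 x, {j | (O j ∩ t).Nonempty}.Finite := by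
    intro x hx
    obtain ⟨t, ht, hf⟩ := hfin ⟨x, hx⟩
    refine ⟨Subtype.val '' t, hΛ.isOpenMap_subtype_val.image_mem_nhds ht, hf.subset ?_⟩
    rintro j ⟨y, hy, z, hz, rfl⟩
    exact ⟨z, hy, hz⟩
  let G : V → ℝ := fun x => ∑ᶠ j, g j x
  have hGs : ∀ x ∈ Λ, ContDiffAt ℝ ∞ G x := by
    intro x hx
    obtain ⟨t, ht, hf⟩ := hloc x hx
    have h1 : ContDiffAt ℝ ∞ (fun y => ∑ j ∈ hf.toFinset, g j y) x :=
      ContDiffAt.sum fun j _ => (gc j).contDiffAt
    refine h1.congr_of_eventuallyEq ?_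
    filter_upwards [ht] with y hy
    refine finsum_eq_sum_of_support_subset _ fun j hj => ?_
    rw [Finite.coe_toFinset]
    exact ⟨y, gts j (subset_tsupport _ hj), hy⟩
  have hfs : ∀ x ∈ Λ, (Function.support fun j => g j x).Finite := by
    intro x hx
    obtain ⟨t, ht, hf⟩ := hloc x hx
    exact hf.subset fun j hj => ⟨x, gts j (subset_tsupport _ hj), mem_of_mem_nhds ht⟩
  have hGp : ∀ x ∈ Λ, 0 < G x := by
    intro x hx
    obtain ⟨j, hj⟩ := mem_iUnion.1 (show (⟨x, hx⟩ : Λ) ∈ ⋃ i, v i by rw [vU]; exact mem_univ _)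
    have h1 : g j x ≠ 0 := by
      have : x ∈ Function.support (g j) := by rw [gs j]; exact ⟨⟨x, hx⟩, hj, rfl⟩
      exact this
    have h2 : 0 < g j x := lt_of_le_of_ne (g0 j x) (Ne.symm h1)
    refine h2.trans_le ?_
    exact single_le_finsum j (hfs x hx) fun i => g0 i x
  refine ⟨J, fun j => a (c j), fun j x => g j x / G x, O, fun j => ?_, fun j x => ?_,
    fun j => isOpen_ball, fun j => ?_, fun j => ?_, hOW, hloc, fun x hx => ?_⟩
  · rw [contDiff_iff_contDiffAt]
    intro x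
    by_cases hx : x ∈ Λ
    · exact (gc j).contDiffAt.div (hGs x hx) (hGp x hx).ne'
    · have h1 : x ∉ tsupport (g j) := fun h => hx (hsub _ (hOW j (subset_closure (gts j h))))
      have h2 : (fun x => g j x / G x) =ᶠ[𝓝 x] fun _ => 0 := by
        filter_upwards [(isClosed_tsupport (g j)).isOpen_compl.mem_nhds h1] with y hy
        rw [image_eq_zero_of_notMem_tsupport hy, zero_div]
      exact contDiffAt_const.congr_of_eventuallyEq h2
  · exact div_nonneg (g0 j x) (finsum_nonneg fun i => g0 i x)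
  · refine Subset.trans (closure_mono fun x hx => ?_) (gts j)
    intro h0
    apply hx
    show g j x / G x = 0
    rw [h0, zero_div]
  · exact (isCompact_closedBall (c j : V) (r j)).of_isClosed_subset isClosed_closure
      closure_ball_subset_closedBall
  · have h1 : ∑ᶠ j, g j x / G x = (∑ᶠ j, g j x) / G x := by
      simp only [div_eq_mul_inv]
      exact (finsum_mul' _ _ (hfs x hx)).symm
    rw [h1]
    exact div_self (hGp x hx).ne'

end Vale.Agent.P073.R2.H669
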