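import Vale.Agent.P073.R2.H669.TPart

/-!
# P073: constants for a locally finite partition of unity
-/

namespace Vale.Agent.P073.R2.H669

open Set Filter Topology Metric Vale.Agent.P073.St
open scoped ContDiff

/-- a compact set meets finitely many members of a locally finite family -/
theorem finite_meet {Λ : Set V} {J : Type} {O : J → Set V}
    (hloc : ∀ x ∈ Λ, ∃ t ∈ 𝓝 x, {j | (O j ∩ t).Nonempty}.Finite) {K : Set V}
    (hK : IsCompact K) (hKΛ : K ⊆ Λ) : {j | (O j ∩ K).Nonempty}.Finite := by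
  have hc : ∀ x : V, ∃ t : Set V, x ∈ K → t ∈ 𝓝 x ∧ {j | (O j ∩ t).Nonempty}.Finite := by
    intro x
    by_cases hx : x ∈ K
    · obtain ⟨t, h1, h2⟩ := hloc x (hKΛ hx)
      exact ⟨t, fun _ => ⟨h1, h2⟩⟩
    · exact ⟨univ, fun h => absurd h hx⟩
  choose t ht using hc
  obtain ⟨s, hs, hcov⟩ := hK.elim_nhds_subcover t fun x hx => (ht x hx).1
  refine (s.finite_toSet.biUnion fun x hx => (ht x (hs x hx)).2).subset ?_
  rintro j ⟨y, hy, hyK⟩
  obtain ⟨x, hx, hyx⟩ := mem_iUnion₂.1 (hcov hyK)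
  exact mem_iUnion₂.2 ⟨x, hx, ⟨y, hy, hyx⟩⟩

/-- the constants -/
theorem exists_const {Λ : Set V} {J : Type} {χ : J → V → ℝ} {O : J → Set V}
    (hχ : ∀ j, ContDiff ℝ ∞ (χ j)) (hO : ∀ j, IsOpen (O j)) (hts : ∀ j, tsupport (χ j) ⊆ O j)
    (hcc : ∀ j, IsCompact (closure (O j))) (hcl : ∀ j, closure (O j) ⊆ Λ)
    (hloc : ∀ x ∈ Λ, ∃ t ∈ 𝓝 x, {j | (O j ∩ t).Nonempty}.Finite) {δ : V → ℝ}
    (hδ : ContinuousOn δ Λ) (hδ0 : ∀ y ∈ Λ, 0 < δ y) :
    ∃ (n : J → ℕ) (ε : J → ℝ), (∀ j, 1 ≤ n j) ∧ (∀ j, 0 < ε j) ∧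
      (∀ j, ∀ y ∈ O j, {i | y ∈ O i}.Finite ∧ {i | y ∈ O i}.ncard ≤ n j) ∧
      (∀ j, ∀ y ∈ O j, n j * ε j ≤ δ y) ∧
      (∀ j, ∀ y ∈ tsupport (χ j), ∀ y', ‖y' - y‖ ≤ ε j → y' ∈ O j) ∧
      ∀ j y y', ‖y' - y‖ ≤ ε j → |χ j y' - χ j y| ≤ 1 / (2 * n j) := by
  have key : ∀ j, ∃ (n : ℕ) (ε : ℝ), 1 ≤ n ∧ 0 < ε ∧
      (∀ y ∈ O j, {i | y ∈ O i}.Finite ∧ {i | y ∈ O i}.ncard ≤ n) ∧
      (∀ y ∈ O j, n * ε ≤ δ y) ∧
      (∀ y ∈ tsupport (χ j), ∀ y', ‖y' - y‖ ≤ ε → y' ∈ O j) ∧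
      ∀ y y', ‖y' - y‖ ≤ ε → |χ j y' - χ j y| ≤ 1 / (2 * n) := by
    intro j
    have hf := finite_meet hloc (hcc j) (hcl j)
    have hn0 : (0 : ℝ) < ({i | (O i ∩ closure (O j)).Nonempty}.ncard + 1 : ℕ) := by
      exact_mod_cast Nat.succ_pos _
    have hct : HasCompactSupport (χ j) :=
      (hcc j).of_isClosed_subset (isClosed_tsupport _) ((hts j).trans subset_closure)
    obtain ⟨c, hc0, hc⟩ : ∃ c : ℝ, 0 < c ∧ ∀ y ∈ closure (O j), c ≤ δ y := by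
      rcases (closure (O j)).eq_empty_or_nonempty with h | h
      · exact ⟨1, one_pos, fun y hy => by rw [h] at hy; exact absurd hy (notMem_empty y)⟩
      · obtain ⟨z, hz, hmin⟩ := (hcc j).exists_isMinOn h (hδ.mono (hcl j))
        exact ⟨δ z, hδ0 z (hcl j hz), fun y hy => hmin hy⟩
    obtain ⟨e2, he2, h2⟩ := IsCompact.exists_cthickening_subset_open hct (hO j) (hts j)
    have huc : UniformContinuous (χ j) := hct.uniformContinuous_of_continuous (hχ j).continuous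
    obtain ⟨e3, he3, h3⟩ := Metric.uniformContinuous_iff.1 huc
      (1 / (2 * ({i | (O i ∩ closure (O j)).Nonempty}.ncard + 1 : ℕ))) (by positivity)
    refine ⟨{i | (O i ∩ closure (O j)).Nonempty}.ncard + 1,
      min (c / ({i | (O i ∩ closure (O j)).Nonempty}.ncard + 1 : ℕ)) (min e2 (e3 / 2)),
      Nat.succ_pos _, lt_min (div_pos hc0 hn0) (lt_min he2 (half_pos he3)), ?_, ?_, ?_, ?_⟩
    · intro y hy
      have hsub : {i | y ∈ O i} ⊆ {i | (O i ∩ closure (O j)).Nonempty} := fun i hi =>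
        ⟨y, hi, subset_closure hy⟩
      exact ⟨hf.subset hsub, (ncard_le_ncard hsub hf).trans (Nat.le_succ _)⟩
    · intro y hy
      refine le_trans ?_ (hc y (subset_closure hy))
      calc _ ≤ (({i | (O i ∩ closure (O j)).Nonempty}.ncard + 1 : ℕ) : ℝ) *
            (c / ({i | (O i ∩ closure (O j)).Nonempty}.ncard + 1 : ℕ)) :=
            mul_le_mul_of_nonneg_left (min_le_left _ _) hn0.le
        _ = c := mul_div_cancel₀ c hn0.ne'
    · intro y hy y' hy'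
      refine h2 (mem_cthickening_of_dist_le y' y e2 _ hy ?_)
      rw [dist_eq_norm]
      exact hy'.trans ((min_le_right _ _).trans (min_le_left _ _))
    · intro y y' hy'
      have h4 : dist y' y < e3 := by
        rw [dist_eq_norm]
        have := hy'.trans ((min_le_right _ _).trans (min_le_right _ _))
        linarith
      have h5 := h3 h4
      rw [Real.dist_eq] at h5
      exact h5.le
  choose n ε h1 h2 h3 h4 h5 h6 using key
  exact ⟨n, ε, h1, h2, h3, h4, h5, h6⟩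

end Vale.Agent.P073.R2.H669
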