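import Vale.Agent.P073.R2.H580.SpecT
import Mathlib.Analysis.Calculus.ContDiff.Convolution
import Mathlib.MeasureTheory.Integral.IntervalIntegral.FundThmCalculus

/-!
# P073: primitives in the last variable are smooth
-/

namespace Vale.Agent.P073.R2.H669

open Set Filter Topology Metric MeasureTheory Vale.Agent.P073.St Vale.Agent.P073.R2.H580
open scoped ContDiff Convolution

/-- the Lebesgue measure on the half line in the direction of the last variable -/
noncomputable def lineM : Measure V :=
  Measure.map (fun t : ℝ => (Pi.single 2 t : V)) (volume.restrict (Ioi 0))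

theorem cont_single : Continuous fun t : ℝ => (Pi.single 2 t : V) := by
  refine continuous_pi fun i => ?_
  by_cases h : i = 2
  · subst h
    simp only [Pi.single_eq_same]
    exact continuous_id
  · simp only [Pi.single_eq_of_ne h]
    exact continuous_const

theorem lineM_loc : IsLocallyFiniteMeasure lineM := by
  refine ⟨fun x => ⟨ball x 1, ball_mem_nhds x one_pos, ?_⟩⟩
  unfold lineM
  rw [Measure.map_apply cont_single.measurable measurableSet_ball]
  refine (Measure.restrict_apply_le _ _).trans_lt ?_
  refine (measure_mono (t := ball (x 2) 1) fun t ht => ?_).trans_lt measure_ball_lt_top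
  have h1 : dist (Pi.single 2 t : V) x < 1 := ht
  have h2 := (dist_pi_lt_iff one_pos).1 h1 2
  rwa [Pi.single_eq_same] at h2

/-- a smooth primitive in the last variable -/
theorem exists_prim {χ : V → ℝ} (hχ : ContDiff ℝ ∞ χ) (hc : HasCompactSupport χ) :
    ∃ H : V → ℝ, ContDiff ℝ ∞ H ∧ (∀ y : V, fderiv ℝ H y (eb 2) = χ y) ∧
      ∀ (y : V) (a b : ℝ), H ![y 0, y 1, b] - H ![y 0, y 1, a] =
        ∫ r in a..b, χ ![y 0, y 1, r] := by
  have hli : LocallyIntegrable (fun _ : V => (1 : ℝ)) lineM := by
    have := lineM_loc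
    exact locallyIntegrable_const 1
  let H : V → ℝ := (fun _ : V => (1 : ℝ)) ⋆[ContinuousLinearMap.lsmul ℝ ℝ, lineM] χ
  have hHs : ContDiff ℝ ∞ H :=
    hc.contDiff_convolution_right (n := ⊤) (ContinuousLinearMap.lsmul ℝ ℝ) hli hχ
  have hH : ∀ y : V, H y = ∫ t in Ioi (0 : ℝ), χ (y - Pi.single 2 t) := by
    intro y
    show ∫ z, (ContinuousLinearMap.lsmul ℝ ℝ) (1 : ℝ) (χ (y - z)) ∂lineM = _
    simp only [ContinuousLinearMap.lsmul_apply, one_smul]
    unfold lineM
    rw [integral_map cont_single.measurable.aemeasurable]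
    exact (hχ.continuous.comp (continuous_const.sub continuous_id)).aestronglyMeasurable
  have hφc : ∀ y : V, Continuous fun r : ℝ => χ ![y 0, y 1, r] := fun y => by
    refine hχ.continuous.comp (continuous_pi fun i => ?_)
    fin_cases i
    · exact continuous_const
    · exact continuous_const
    · exact continuous_id
  have hφi : ∀ y : V, Integrable (fun r : ℝ => χ ![y 0, y 1, r]) := fun y => by
    refine (hφc y).integrable_of_hasCompactSupport ?_
    obtain ⟨R, hR⟩ := (hc.isCompact.isBounded).subset_closedBall (0 : V)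
    refine HasCompactSupport.of_support_subset_isCompact (isCompact_closedBall (0 : ℝ) R)
      fun r hr => ?_
    have h1 := hR (subset_tsupport _ (show ![y 0, y 1, r] ∈ Function.support χ from hr))
    rw [mem_closedBall_zero_iff] at h1 ⊢
    exact (norm_le_pi_norm (![y 0, y 1, r] : V) 2).trans h1
  have hI : ∀ (y : V) (b : ℝ), H ![y 0, y 1, b] = ∫ r in Iic b, χ ![y 0, y 1, r] := by
    intro y b
    rw [hH, ← integral_indicator measurableSet_Ioi, integral_Iic_eq_integral_Iio,
      ← integral_indicator measurableSet_Iio,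
      ← integral_sub_left_eq_self ((Iio b).indicator fun r => χ ![y 0, y 1, r]) volume b]
    refine integral_congr_ae (Eventually.of_forall fun t => ?_)
    show (Ioi (0 : ℝ)).indicator (fun t => χ (![y 0, y 1, b] - Pi.single 2 t)) t =
      (Iio b).indicator (fun r => χ ![y 0, y 1, r]) (b - t)
    have h1 : (![y 0, y 1, b] - Pi.single 2 t : V) = ![y 0, y 1, b - t] := by
      funext i
      fin_cases i <;> simp
    by_cases ht : 0 < t
    · rw [indicator_of_mem (show t ∈ Ioi (0 : ℝ) from ht),
        indicator_of_mem (show b - t ∈ Iio b by rw [mem_Iio]; linarith), h1]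
    · rw [indicator_of_notMem (show t ∉ Ioi (0 : ℝ) from ht),
        indicator_of_notMem (show b - t ∉ Iio b by rw [mem_Iio]; linarith)]
  have hD : ∀ (y : V) (a b : ℝ), H ![y 0, y 1, b] - H ![y 0, y 1, a] =
      ∫ r in a..b, χ ![y 0, y 1, r] := fun y a b => by
    rw [hI, hI, intervalIntegral.integral_Iic_sub_Iic (hφi y).integrableOn (hφi y).integrableOn]
  refine ⟨H, hHs, fun y => ?_, hD⟩
  have hd : HasFDerivAt H (fderiv ℝ H y) y := (hHs.differentiable (by simp)).differentiableAt.hasFDerivAt
  have h1 : HasDerivAt (fun s : ℝ => y + s • (eb 2)) (eb 2) 0 := by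
    have := ((hasDerivAt_id (0 : ℝ)).smul_const (eb 2)).const_add y
    simpa using this
  have h2 : HasDerivAt (fun s : ℝ => H (y + s • eb 2)) (fderiv ℝ H y (eb 2)) 0 := by
    have h3 : HasFDerivAt H (fderiv ℝ H y) (y + (0 : ℝ) • eb 2) := by
      rw [zero_smul, add_zero]; exact hd
    exact h3.comp_hasDerivAt 0 h1
  have h4 : HasDerivAt (fun s : ℝ => ∫ r in (y 2)..(y 2 + s), χ ![y 0, y 1, r]) (χ y) 0 := by
    have h5 : HasDerivAt (fun b : ℝ => ∫ r in (y 2)..b, χ ![y 0, y 1, r])
        (χ ![y 0, y 1, y 2 + 0]) (y 2 + 0) :=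
      intervalIntegral.integral_hasDerivAt_right ((hφc y).intervalIntegrable _ _)
        (hφc y).stronglyMeasurable.stronglyMeasurableAtFilter (hφc y).continuousAt
    have h6 : HasDerivAt (fun s : ℝ => y 2 + s) 1 0 := (hasDerivAt_id (0 : ℝ)).const_add (y 2)
    have h7 := h5.comp 0 h6
    have h8 : (![y 0, y 1, y 2 + 0] : V) = y := by
      funext i
      fin_cases i <;> simp
    rw [h8, mul_one] at h7
    exact h7
  have h9 : (fun s : ℝ => H (y + s • eb 2)) =
      fun s => H ![y 0, y 1, y 2] + ∫ r in (y 2)..(y 2 + s), χ ![y 0, y 1, r] := by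
    funext s
    rw [← hD y (y 2) (y 2 + s)]
    have h10 : (y + s • eb 2 : V) = ![y 0, y 1, y 2 + s] := by
      funext i
      fin_cases i <;> simp [eb]
    rw [h10]
    ring
  rw [h9] at h2
  exact h2.unique (h4.const_add _)

end Vale.Agent.P073.R2.H669
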